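import Vale.Agent.P127.Dec
import Vale.Agent.P127.Api2

/-! # P127 Lin2/Base: the standing hypotheses at scale `w` and the heavy windows. -/

namespace Vale.Agent.P127

open Finset
open scoped Classical

variable {k : ℕ}

theorem cs_l2 {Ω β : Type} [DecidableEq β] (E : Finset Ω) (f : Ω → β) :
    (E.card : ℝ) ^ 2 ≤ (E.image f).card * (((E ×ˢ E).filter fun p => f p.1 = f p.2).card : ℝ) := by
  simpa only [image_cd, filter_cd] using cs E f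

theorem big_l2 {Ω β : Type} [DecidableEq β] (E : Finset Ω) (f : Ω → β) :
    ∃ F ⊆ E, (E.card : ℝ) ≤ (E.image f).card * F.card ∧ ∀ ω ∈ F, ∀ ω' ∈ F, f ω = f ω' := by
  simpa only [image_cd, filter_cd] using big_comb E f

theorem img_l2 {Ω β γ : Type} [DecidableEq β] [DecidableEq γ] (E : Finset Ω) (f : Ω → β)
    (g : Ω → γ) {M : ℝ} (h : ∀ ω ∈ E, (((E.filter fun ω' => f ω' = f ω).image g).card : ℝ) ≤ M) :
    ((E.image g).card : ℝ) ≤ (E.image f).card * M := by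
  simpa only [image_cd, filter_cd] using image_le_mul E f g (M := M) fun ω hω => by
    simpa only [image_cd, filter_cd] using h ω hω

theorem fib_l2 {Ω β : Type} [DecidableEq β] (E : Finset Ω) (f : Ω → β) {M : ℝ}
    (h : ∀ ω ∈ E, ((E.filter fun ω' => f ω' = f ω).card : ℝ) ≤ M) :
    (E.card : ℝ) ≤ (E.image f).card * M := by
  simpa only [image_cd, filter_cd] using card_le_fib E f (M := M) fun ω hω => by
    simpa only [image_cd, filter_cd] using h ω hω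

/-- the hypotheses, with `N = w ^ 6`, `H = w ^ 2`, `η = w⁻¹` -/
structure Hy (σ : ℝ) (d : Dat (k + 1)) (w K : ℝ) (i0 : Fin (k + 1)) : Prop where
  reg : Reg σ 1 d (w ^ 6) (w ^ 2) K
  lip1 : Lip1 d K w⁻¹
  lipF : LipF d K w⁻¹
  S : d.S = {i0}
  w1 : 1 ≤ w
  K2 : 2 ≤ K

/-- pairs of points of one line in the window `n` -/
noncomputable def TT (d : Dat (k + 1)) (η : ℝ) (n : ℤ) : Finset ((ℕ × ℝ) × (ℕ × ℝ)) :=
  (d.c.E ×ˢ d.c.E).filter fun p => p.1.1 = p.2.1 ∧ cz η p.1.2 = n ∧ cz η p.2.2 = n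

theorem mem_TT {d : Dat (k + 1)} {η : ℝ} {n : ℤ} {p : (ℕ × ℝ) × (ℕ × ℝ)} : p ∈ TT d η n ↔
    (p.1 ∈ d.c.E ∧ p.2 ∈ d.c.E) ∧ p.1.1 = p.2.1 ∧ cz η p.1.2 = n ∧ cz η p.2.2 = n := by
  simp only [TT, mem_filter, mem_product]

theorem u_shift_l2 {D : ℕ} (d : Dat D) (i : ℕ) (z z' : ℝ) : d.u (i, z') - d.u (i, z) =
    (z' - z) • d.s (i, z) + mv (d.P z' - d.P z) (d.c.pos (i, z')) := by
  simp only [Dat.u, Dat.s]
  rw [sub_mv, pos_shift d.c i z z', mv_add (d.P z), mv_smul]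
  abel

namespace Hy

variable {σ w K : ℝ} {d : Dat (k + 1)} {i0 : Fin (k + 1)} (h : Hy σ d w K i0)
include h

theorem w0 : 0 < w := by linarith [h.w1]

theorem K0 : 0 < K := by linarith [h.K2]

theorem e0 : 0 < w⁻¹ := inv_pos.2 h.w0

theorem e1 : w⁻¹ ≤ 1 := inv_le_one_of_one_le₀ h.w1

theorem N1 : 1 ≤ w ^ 6 := one_le_pow₀ h.w1

theorem e2 : 1 / w ^ 6 ≤ w⁻¹ ^ 2 := by
  rw [inv_pow, one_div]
  exact inv_anti₀ (pow_pos h.w0 2) (pow_le_pow_right₀ h.w1 (by norm_num))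

theorem e3 : w⁻¹ ^ 2 ≤ w⁻¹ := by nlinarith [h.e0, h.e1]

theorem e4 : w⁻¹ / w⁻¹ ^ 2 = w := by
  have := h.w0
  field_simp

theorem row {z : ℝ} {j : Fin (k + 1)} (hj : j ≠ i0) (v : V (k + 1)) : mv (d.P z) v j = 0 := by
  have : j ∉ d.S := by simpa [h.S] using hj
  simp [mv, (h.reg.gr z).1 j this]

theorem norm_u_sub (ω : ℕ × ℝ) (q : V (k + 1)) (hq : ∀ j ≠ i0, q j = 0) {b : ℝ}
    (hb : |d.u ω i0 - q i0| ≤ b) : ‖d.u ω - q‖ ≤ b := by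
  have b0 := (abs_nonneg _).trans hb
  refine (pi_norm_le_iff_of_nonneg b0).2 fun j => ?_
  by_cases hj : j = i0
  · subst hj
    exact hb
  · have : d.u ω j = 0 := h.row hj _
    simp [this, hq j hj, b0]

theorem hts (z0 : ℝ) : ((d.c.Z.filter fun z => |z - z0| ≤ w⁻¹).card : ℝ) ≤ K * w := by
  have := h.w0
  refine (h.reg.good.hts z0 w⁻¹ (by rw [one_div, ← inv_pow]; exact h.e3)).trans (le_of_eq ?_)
  field_simp

theorem memL {ω : ℕ × ℝ} (hω : ω ∈ d.c.E) : ω.1 ∈ d.c.L := (mem_product.1 (h.reg.good.sub hω)).1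

theorem memZ {ω : ℕ × ℝ} (hω : ω ∈ d.c.E) : ω.2 ∈ d.c.Z := (mem_product.1 (h.reg.good.sub hω)).2

theorem norm_s {ω : ℕ × ℝ} (hω : ω ∈ d.c.E) : ‖d.s ω‖ ≤ (k + 1) * 2 ^ (k + 1) := by
  refine (norm_mv _ _).trans ?_
  have h1 := h.reg.gr.norm_le ω.2
  have h2 := h.reg.good.be _ (h.memL hω)
  push_cast
  calc ((k : ℝ) + 1) * ‖d.P ω.2‖ * ‖d.c.e ω.1‖ ≤ (k + 1) * 2 ^ (k + 1) * 1 := by gcongr
    _ = _ := mul_one _

theorem norm_u {ω : ℕ × ℝ} (hω : ω ∈ d.c.E) : ‖d.u ω‖ ≤ (k + 1) * 2 ^ (k + 1) * 2 := by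
  refine (norm_mv _ _).trans ?_
  have h1 := h.reg.gr.norm_le ω.2
  have h2 := h.reg.good.toPre.norm_pos hω
  push_cast
  gcongr

theorem dP {ω ω' : ℕ × ℝ} (hω : ω ∈ d.c.E) (hω' : ω' ∈ d.c.E) (e : cz w⁻¹ ω.2 = cz w⁻¹ ω'.2) :
    ‖d.P ω.2 - d.P ω'.2‖ ≤ 2 * K * w⁻¹ := by
  have h1 := h.lipF ω hω ω' hω'
  have h2 := cz_close h.e0 e
  nlinarith [h.K0]

theorem card_win (n : ℤ) : ((d.c.Z.filter fun z => cz w⁻¹ z = n).card : ℝ) ≤ K * w := by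
  rcases (d.c.Z.filter fun z => cz w⁻¹ z = n).eq_empty_or_nonempty with e | ⟨z0, hz0⟩
  · rw [e, card_empty, Nat.cast_zero]
    exact (mul_pos h.K0 h.w0).le
  · refine le_trans (Nat.cast_le.2 (card_le_card (monotone_filter_right _ fun z _ hz => ?_)))
      (h.hts z0)
    exact cz_close h.e0 (hz.trans (mem_filter.1 hz0).2.symm)

theorem card_TT (n : ℤ) : ((TT d w⁻¹ n).card : ℝ) ≤ K ^ 3 * d.c.nL * w ^ 2 := by
  have h1 : (TT d w⁻¹ n).card ≤ (d.c.L ×ˢ (d.c.Z.filter fun z => cz w⁻¹ z = n) ×ˢ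
      (d.c.Z.filter fun z => cz w⁻¹ z = n)).card := by
    refine card_le_card_of_injOn (fun p => (p.1.1, p.1.2, p.2.2)) (fun p hp => ?_)
      fun p hp p' hp' e => ?_
    · obtain ⟨⟨a, b⟩, -, c1, c2⟩ := mem_TT.1 hp
      simp only [coe_product, Set.mem_prod, mem_coe, mem_filter]
      exact ⟨h.memL a, ⟨h.memZ a, c1⟩, h.memZ b, c2⟩
    · obtain ⟨-, c, -⟩ := mem_TT.1 hp
      obtain ⟨-, c', -⟩ := mem_TT.1 hp'
      simp only [Prod.mk.injEq] at e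
      exact Prod.ext (Prod.ext e.1 e.2.1) (Prod.ext (c.symm.trans (e.1.trans c')) e.2.2)
  have h2 := h.reg.good.toPre.cardL h.N1
  have h3 := h.card_win n
  have := h.K0
  have := h.reg.good.nL_pos
  have := h.w0
  refine (Nat.cast_le.2 h1).trans ?_
  rw [card_product, card_product]
  push_cast
  calc _ ≤ K * d.c.nL * (K * w * (K * w)) := by gcongr
    _ = _ := by ring

theorem wins : ∃ W : Finset ℤ, w / (6 * K ^ 6) ≤ W.card ∧
    ∀ n ∈ W, d.c.nL * w ^ 2 / (18 * K ^ 3) ≤ (TT d w⁻¹ n).card := by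
  have hw := h.w0
  have hK := h.K0
  have hn := h.reg.good.nL_pos
  set Wa := d.c.E.image fun ω => cz w⁻¹ ω.2 with hWa
  have a1 : (Wa.card : ℝ) ≤ 3 * w := by
    refine (cover_z d.c.E (fun ω => ω.2) (1 / 2) h.e0 (ρ := 1 / 2) (by norm_num) fun ω hω => ?_).trans ?_
    · have := h.reg.good.bz _ (h.memZ hω)
      rw [abs_le]
      constructor <;> linarith [this.1, this.2]
    · rw [div_inv_eq_mul]
      linarith [h.w1]
  have a2 : ((d.c.E.image fun ω => (ω.1, cz w⁻¹ ω.2)).card : ℝ) ≤ K * d.c.nL * (3 * w) := by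
    have : (d.c.E.image fun ω => (ω.1, cz w⁻¹ ω.2)) ⊆ d.c.L ×ˢ Wa := fun x hx => by
      obtain ⟨ω, hω, rfl⟩ := mem_image.1 hx
      exact mem_product.2 ⟨h.memL hω, mem_image_of_mem _ hω⟩
    refine (Nat.cast_le.2 (card_le_card this)).trans ?_
    rw [card_product]
    push_cast
    have := h.reg.good.toPre.cardL h.N1
    gcongr
  have a3 := cs_l2 d.c.E fun ω => (ω.1, cz w⁻¹ ω.2)
  set Q := (d.c.E ×ˢ d.c.E).filter fun p => (p.1.1, cz w⁻¹ p.1.2) = (p.2.1, cz w⁻¹ p.2.2) with hQ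
  have a4 : (Q.card : ℝ) ≤ ∑ n ∈ Wa, ((TT d w⁻¹ n).card : ℝ) := by
    have : Q ⊆ Wa.biUnion (TT d w⁻¹) := fun p hp => by
      obtain ⟨b1, b2⟩ := mem_filter.1 hp
      simp only [Prod.mk.injEq] at b2
      exact mem_biUnion.2 ⟨_, mem_image_of_mem _ (mem_product.1 b1).1,
        mem_TT.2 ⟨mem_product.1 b1, b2.1, rfl, b2.2.symm⟩⟩
    exact_mod_cast (card_le_card this).trans card_biUnion_le
  have a5 : d.c.nL * w ^ 3 / (3 * K ^ 3) ≤ Q.card := by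
    have b1 : (d.c.nL * w ^ 2 / K) ^ 2 ≤ K * d.c.nL * (3 * w) * Q.card :=
      (pow_le_pow_left₀ (by positivity) h.reg.good.mass 2).trans (a3.trans (by gcongr))
    have b2 : (d.c.nL * w ^ 2 / K) ^ 2 =
        K * d.c.nL * (3 * w) * (d.c.nL * w ^ 3 / (3 * K ^ 3)) := by field_simp
    rw [b2] at b1
    exact le_of_mul_le_mul_left b1 (by positivity)
  refine ⟨Wa.filter fun n => d.c.nL * w ^ 2 / (18 * K ^ 3) ≤ (TT d w⁻¹ n).card, ?_,
    fun n hn => (mem_filter.1 hn).2⟩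
  rw [← sum_filter_add_sum_filter_not Wa
    fun n => d.c.nL * w ^ 2 / (18 * K ^ 3) ≤ ((TT d w⁻¹ n).card : ℝ)] at a4
  have a6 := sum_le_card_nsmul (Wa.filter fun n => d.c.nL * w ^ 2 / (18 * K ^ 3) ≤
    ((TT d w⁻¹ n).card : ℝ)) (fun n => ((TT d w⁻¹ n).card : ℝ)) _ fun n _ => h.card_TT n
  have a7 := sum_le_card_nsmul (Wa.filter fun n => ¬d.c.nL * w ^ 2 / (18 * K ^ 3) ≤
    ((TT d w⁻¹ n).card : ℝ)) (fun n => ((TT d w⁻¹ n).card : ℝ)) _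
    fun n hn => (not_le.1 (mem_filter.1 hn).2).le
  rw [nsmul_eq_mul] at a6 a7
  have a8 : ((Wa.filter fun n => ¬d.c.nL * w ^ 2 / (18 * K ^ 3) ≤
      ((TT d w⁻¹ n).card : ℝ)).card : ℝ) * (d.c.nL * w ^ 2 / (18 * K ^ 3)) ≤
      3 * w * (d.c.nL * w ^ 2 / (18 * K ^ 3)) :=
    mul_le_mul_of_nonneg_right ((Nat.cast_le.2 (card_filter_le _ _)).trans a1) (by positivity)
  have b1 : 3 * w * (d.c.nL * w ^ 2 / (18 * K ^ 3)) =
      w / (6 * K ^ 6) * (K ^ 3 * d.c.nL * w ^ 2) := by field_simp; ring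
  have b2 : d.c.nL * w ^ 3 / (3 * K ^ 3) = 2 * (w / (6 * K ^ 6) * (K ^ 3 * d.c.nL * w ^ 2)) := by
    field_simp; ring
  refine le_of_mul_le_mul_right (a := K ^ 3 * d.c.nL * w ^ 2) ?_ (by positivity)
  linarith

end Hy

/-- the heaviest key in a heavy window -/
theorem key_l2 (k : ℕ) : ∃ C ≥ (1 : ℝ), ∀ {σ w K : ℝ} {d : Dat (k + 1)} {i0 : Fin (k + 1)},
    Hy σ d w K i0 → ∀ n, d.c.nL * w ^ 2 / (18 * K ^ 3) ≤ (TT d w⁻¹ n).card →
    ∃ F ⊆ TT d w⁻¹ n, d.c.nL * w ^ σ / (C * K ^ 5) ≤ F.card ∧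
      ∀ p ∈ F, ∀ p' ∈ F, p.1.2 = p'.1.2 ∧ cell w⁻¹ (d.u p.1) = cell w⁻¹ (d.u p'.1) := by
  obtain ⟨C, hC, h3⟩ := r3A (k + 1)
  set A : ℝ := (k + 1) * 2 ^ (k + 1) * 2 with hA
  have hA1 : 1 ≤ A := by
    have : (1 : ℝ) ≤ 2 ^ (k + 1) := one_le_pow₀ one_le_two
    have : (0 : ℝ) ≤ k := Nat.cast_nonneg k
    nlinarith
  have hAD : 1 ≤ A ^ (k + 1) := one_le_pow₀ hA1
  refine ⟨18 * (C * A ^ (k + 1)), by nlinarith, fun {σ w K d i0} h n hn => ?_⟩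
  have hw := h.w0
  have hK := h.K0
  have hL := h.reg.good.nL_pos
  obtain ⟨F, hF, h1, h2⟩ := big_l2 (TT d w⁻¹ n) fun p => (p.1.2, cell w⁻¹ (d.u p.1))
  refine ⟨F, hF, ?_, fun p hp p' hp' => by simpa using h2 p hp p' hp'⟩
  have a1 := img_l2 (TT d w⁻¹ n) (fun p => p.1.2) (fun p => (p.1.2, cell w⁻¹ (d.u p.1)))
    (M := C * A ^ (k + 1) * K * w ^ (1 - σ)) fun p _ => by
      have b := h3 h.reg h.N1 A p.1.2 1 w⁻¹ 0 hA1 (h.e2.trans h.e3) h.e1 le_rfl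
      rw [one_div, inv_inv, Nat.cast_one] at b
      refine le_trans (Nat.cast_le.2 (card_le_card_of_injOn Prod.snd (fun x hx => ?_)
        fun x hx x' hx' e => ?_)) b
      · obtain ⟨p', hp', rfl⟩ := mem_image.1 hx
        have c := (mem_TT.1 (mem_filter.1 hp').1).1.1
        exact mem_image_of_mem _ (mem_filter.2 ⟨c, (mem_filter.1 hp').2, by simpa using h.norm_u c⟩)
      · obtain ⟨p1, hp1, rfl⟩ := mem_image.1 hx
        obtain ⟨p2, hp2, rfl⟩ := mem_image.1 hx'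
        exact Prod.ext ((mem_filter.1 hp1).2.trans (mem_filter.1 hp2).2.symm) e
  have a2 : (((TT d w⁻¹ n).image fun p => p.1.2).card : ℝ) ≤ K * w := by
    refine le_trans (Nat.cast_le.2 (card_le_card fun z hz => ?_)) (h.card_win n)
    obtain ⟨p, hp, rfl⟩ := mem_image.1 hz
    exact mem_filter.2 ⟨h.memZ (mem_TT.1 hp).1.1, (mem_TT.1 hp).2.2.1⟩
  have a3 : d.c.nL * w ^ 2 / (18 * K ^ 3) ≤
      K * w * (C * A ^ (k + 1) * K * w ^ (1 - σ)) * F.card :=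
    hn.trans (h1.trans (by gcongr; exact a1.trans (by gcongr)))
  have e : d.c.nL * w ^ 2 / (18 * K ^ 3) = K * w * (C * A ^ (k + 1) * K * w ^ (1 - σ)) *
      (d.c.nL * w ^ σ / (18 * (C * A ^ (k + 1)) * K ^ 5)) := by
    rw [Real.rpow_sub hw, Real.rpow_one]
    field_simp
  rw [e] at a3
  exact le_of_mul_le_mul_left a3 (by positivity)

end Vale.Agent.P127
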